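import Vale.Agent.P097.TC.Defs

/-! # P097, row A4.0: Egorov. Compact pieces with uniform non-tangential limits -/

set_option autoImplicit false
set_option linter.all false

open Complex Metric Filter Topology Set MeasureTheory

namespace Vale.Agent.P097.H725

open Vale.Agent.P097.TC

/-- slopes increasing to `k` -/
noncomputable def kn (k : ℝ) (n : ℕ) : ℝ := k - k / ((n : ℝ) + 2)

theorem kn_pos {k : ℝ} (hk : 0 < k) (n : ℕ) : 0 < kn k n := by
  have h4 : (0 : ℝ) < (n : ℝ) + 2 := by positivity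
  have h6 : k / ((n : ℝ) + 2) < k := by
    rw [div_lt_iff₀ h4]; nlinarith [(Nat.cast_nonneg n : (0 : ℝ) ≤ n)]
  unfold kn; linarith

theorem kn_lt {k : ℝ} (hk : 0 < k) (n : ℕ) : kn k n < k := by
  have : 0 < k / ((n : ℝ) + 2) := by positivity
  unfold kn; linarith

theorem kn_tendsto (k : ℝ) : Tendsto (kn k) atTop (𝓝 k) := by
  have h : Tendsto (fun n : ℕ => k / ((n : ℝ) + 2)) atTop (𝓝 0) :=
    tendsto_const_nhds.div_atTop (tendsto_atTop_add_const_right _ _ tendsto_natCast_atTop_atTop)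
  have h2 : Tendsto (fun n : ℕ => k - k / ((n : ℝ) + 2)) atTop (𝓝 (k - 0)) :=
    tendsto_const_nhds.sub h
  rw [sub_zero] at h2
  exact h2

/-- truncated approach regions -/
def Gam (e₀ : ℝ × ℝ) (ρ k : ℝ) (n : ℕ) (δ : ℝ) (e : ℝ × ℝ) : Set (ℂ × ℂ) :=
  {z | z ∈ TB e₀ ρ (K1 (kn k n)) ∧ ‖ft z - e‖ < n * z.1.im ∧ z.1.im < δ}

theorem bl_im1 (e : ℝ × ℝ) (r : ℝ) (z : ℂ × ℂ) : (bl e r z).1.im = r * z.1.im := by simp [bl]
theorem bl_im2 (e : ℝ × ℝ) (r : ℝ) (z : ℂ × ℂ) : (bl e r z).2.im = r * z.2.im := by simp [bl]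
theorem bl_re1 (e : ℝ × ℝ) (r : ℝ) (z : ℂ × ℂ) : (bl e r z).1.re = e.1 + r * z.1.re := by
  simp [bl]
theorem bl_re2 (e : ℝ × ℝ) (r : ℝ) (z : ℂ × ℂ) : (bl e r z).2.re = e.2 + r * z.2.re := by
  simp [bl]

theorem ft_bl (e : ℝ × ℝ) (r : ℝ) (z : ℂ × ℂ) : ft (bl e r z) - e = r • ft z := by
  ext
  · simp [ft, bl_re1]
  · simp [ft, bl_re2]

theorem continuous_ft : Continuous ft := by
  unfold ft
  fun_prop

theorem isOpen_K1 (k : ℝ) : IsOpen (K1 k) :=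
  isOpen_lt (continuous_abs.comp continuous_snd) (continuous_const.mul continuous_fst)

theorem isOpen_TB (e₀ : ℝ × ℝ) (ρ k : ℝ) : IsOpen (TB e₀ ρ (K1 k)) := by
  refine (isOpen_ball.preimage continuous_ft).inter ?_
  exact (isOpen_lt continuous_ht.norm continuous_const).inter ((isOpen_K1 k).preimage continuous_ht)

theorem TB_mono {e₀ : ℝ × ℝ} {ρ k k' : ℝ} (h : k' ≤ k) {z : ℂ × ℂ}
    (hz : z ∈ TB e₀ ρ (K1 k')) (h0 : 0 ≤ z.1.im) : z ∈ TB e₀ ρ (K1 k) := by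
  obtain ⟨h1, h2, h3⟩ := hz
  refine ⟨h1, h2, ?_⟩
  simp only [K1, mem_setOf_eq, ht] at h3 ⊢
  exact h3.trans_le (mul_le_mul_of_nonneg_right h h0)

theorem im_pos {e₀ : ℝ × ℝ} {ρ k : ℝ} (hk : 0 < k) {z : ℂ × ℂ} (hz : z ∈ TB e₀ ρ (K1 k)) :
    0 < z.1.im := by
  have h3 := hz.2.2
  simp only [K1, mem_setOf_eq, ht] at h3
  have h4 := (abs_nonneg z.2.im).trans_lt h3
  exact (pos_iff_pos_of_mul_pos h4).1 hk

theorem isOpen_Gam (e₀ : ℝ × ℝ) (ρ k : ℝ) (n : ℕ) (δ : ℝ) (e : ℝ × ℝ) :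
    IsOpen (Gam e₀ ρ k n δ e) := by
  refine (isOpen_TB e₀ ρ (kn k n)).inter ?_
  refine (isOpen_lt ((continuous_ft.sub continuous_const).norm)
    (continuous_const.mul (Complex.continuous_im.comp continuous_fst))).inter ?_
  exact isOpen_lt (Complex.continuous_im.comp continuous_fst) continuous_const

/-- the non-tangential limit is uniform on the truncated regions -/
theorem nt_unif {f : ℂ × ℂ → ℂ} {k : ℝ} {e : ℝ × ℝ} {x : ℂ} (hk : 0 < k) (h : NT f k e x)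
    (e₀ : ℝ × ℝ) (ρ : ℝ) (n : ℕ) {ε : ℝ} (hε : 0 < ε) :
    ∃ δ > 0, ∀ z ∈ Gam e₀ ρ k n δ e, ‖f z - x‖ ≤ ε := by
  set Z : Set (ℂ × ℂ) := (fun a : (ℝ × ℝ) × ℝ => (((a.1.1 : ℂ) + I, (a.1.2 : ℂ) + a.2 * I) : ℂ × ℂ)) ''
    (closedBall (0 : ℝ × ℝ) n ×ˢ Icc (-kn k n) (kn k n)) with hZ
  have hZc : IsCompact Z := by
    refine ((isCompact_closedBall _ _).prod isCompact_Icc).image ?_
    fun_prop
  have hZs : Z ⊆ Tc (K1 k) := by
    rintro _ ⟨⟨a, t⟩, ⟨h1, h2⟩, rfl⟩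
    simp only [Tc, K1, ht, mem_setOf_eq, Complex.add_im, Complex.ofReal_im, Complex.I_im, zero_add,
      Complex.mul_im, Complex.ofReal_re, mul_one, Complex.I_re, mul_zero, add_zero]
    exact (abs_le.2 h2).trans_lt (kn_lt hk n)
  have h1 : ∀ w ∈ Z, {a : ℝ × (ℂ × ℂ) | ‖f (bl e a.1 a.2) - x‖ < ε} ∈ (𝓝[>] (0 : ℝ)) ×ˢ 𝓝 w := by
    intro w hw
    have h2 := h w (hZs hw)
    have h3 := (Metric.tendsto_nhds.1 h2) ε hε
    filter_upwards [h3] with a ha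
    rwa [dist_eq_norm] at ha
  have h2 := hZc.mem_prod_nhdsSet_of_forall h1
  obtain ⟨t₁, ht₁, t₂, ht₂, hsub⟩ := mem_prod_iff.1 h2
  obtain ⟨δ, hδ, hδs⟩ := mem_nhdsGT_iff_exists_Ioo_subset.1 ht₁
  refine ⟨δ, hδ, fun z hz => ?_⟩
  obtain ⟨hz1, hz2, hz3⟩ := hz
  have hr := im_pos (kn_pos hk n) hz1
  set r := z.1.im with hrdef
  set w : ℂ × ℂ := ((((z.1.re - e.1) / r : ℝ) : ℂ) + I,
    (((z.2.re - e.2) / r : ℝ) : ℂ) + ((z.2.im / r : ℝ) : ℂ) * I) with hw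
  have hwZ : w ∈ Z := by
    refine ⟨(((z.1.re - e.1) / r, (z.2.re - e.2) / r), z.2.im / r), ⟨?_, ?_⟩, rfl⟩
    · rw [mem_closedBall_zero_iff]
      have h4 : (((z.1.re - e.1) / r, (z.2.re - e.2) / r) : ℝ × ℝ) = r⁻¹ • (ft z - e) := by
        ext
        · simp [ft]; ring
        · simp [ft]; ring
      rw [h4, norm_smul, norm_inv, Real.norm_of_nonneg hr.le, inv_mul_le_iff₀ hr, mul_comm]
      exact hz2.le
    · have h5 := hz1.2.2
      simp only [K1, mem_setOf_eq, ht] at h5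
      rw [mem_Icc, ← abs_le, abs_div, abs_of_pos hr, div_le_iff₀ hr]
      exact h5.le
  have hbl : bl e r w = z := by
    have hr' : (r : ℝ) ≠ 0 := hr.ne'
    apply Prod.ext
    · apply Complex.ext
      · rw [bl_re1]
        simp [hw]
        field_simp
        ring
      · rw [bl_im1]
        simp [hw, hrdef]
    · apply Complex.ext
      · rw [bl_re2]
        simp [hw]
        field_simp
        ring
      · rw [bl_im2]
        simp [hw]
        field_simp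
  have h6 : ((r, w) : ℝ × (ℂ × ℂ)) ∈ t₁ ×ˢ t₂ :=
    ⟨hδs ⟨hr, hz3⟩, subset_of_mem_nhdsSet ht₂ hwZ⟩
  have h7 := hsub h6
  simp only [mem_setOf_eq, hbl] at h7
  exact h7.le

/-- uniform bounds on the truncated regions give the non-tangential limit -/
theorem nt_of_unif {f : ℂ × ℂ → ℂ} {k ρ : ℝ} {e₀ e : ℝ × ℝ} {x : ℂ} (hk : 0 < k) (hρ : 0 < ρ)
    (he : e ∈ ball e₀ ρ)
    (h : ∀ (n : ℕ) (ε : ℝ), 0 < ε → ∃ δ > 0, ∀ z ∈ Gam e₀ ρ k n δ e, ‖f z - x‖ ≤ ε) :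
    NT f k e x := by
  intro z₁ hz₁
  have hz : |z₁.2.im| < k * z₁.1.im := hz₁
  have him : 0 < z₁.1.im := (pos_iff_pos_of_mul_pos ((abs_nonneg _).trans_lt hz)).1 hk
  have t1 : ∀ᶠ n : ℕ in atTop, |z₁.2.im| < kn k n * z₁.1.im :=
    ((kn_tendsto k).mul_const _).eventually_const_lt hz
  have t2 : ∀ᶠ n : ℕ in atTop, ‖ft z₁‖ < n * z₁.1.im :=
    (tendsto_natCast_atTop_atTop.atTop_mul_const him).eventually_gt_atTop _
  obtain ⟨n, hn1, hn2⟩ := (t1.and t2).exists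
  rw [Metric.tendsto_nhds]
  intro ε hε
  obtain ⟨δ, hδ, hδs⟩ := h n (ε / 2) (half_pos hε)
  -- openness at `z₁`
  have o1 : ∀ᶠ w : ℂ × ℂ in 𝓝 z₁, |w.2.im| < kn k n * w.1.im := by
    have : IsOpen {w : ℂ × ℂ | |w.2.im| < kn k n * w.1.im} :=
      isOpen_lt ((Complex.continuous_im.comp continuous_snd).abs)
        (continuous_const.mul (Complex.continuous_im.comp continuous_fst))
    exact this.mem_nhds hn1
  have o2 : ∀ᶠ w : ℂ × ℂ in 𝓝 z₁, ‖ft w‖ < n * w.1.im := by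
    have : IsOpen {w : ℂ × ℂ | ‖ft w‖ < n * w.1.im} :=
      isOpen_lt continuous_ft.norm
        (continuous_const.mul (Complex.continuous_im.comp continuous_fst))
    exact this.mem_nhds hn2
  have c0 : Continuous fun a : ℝ × (ℂ × ℂ) => bl e a.1 a.2 := by
    unfold bl
    fun_prop
  have e0 : bl e 0 z₁ = rl e := by simp [bl, rl]
  have o3 : ∀ᶠ a : ℝ × (ℂ × ℂ) in 𝓝 ((0 : ℝ), z₁), ft (bl e a.1 a.2) ∈ ball e₀ ρ := by
    refine (continuous_ft.comp c0).continuousAt.eventually_mem (isOpen_ball.mem_nhds ?_)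
    simpa [e0, ft, rl] using he
  have o4 : ∀ᶠ a : ℝ × (ℂ × ℂ) in 𝓝 ((0 : ℝ), z₁), ‖ht (bl e a.1 a.2)‖ < ρ := by
    refine (continuous_ht.comp c0).norm.continuousAt.eventually_lt continuousAt_const ?_
    simpa [e0, ht, rl] using hρ
  have o5 : ∀ᶠ a : ℝ × (ℂ × ℂ) in 𝓝 ((0 : ℝ), z₁), (bl e a.1 a.2).1.im < δ := by
    refine (Complex.continuous_im.comp (continuous_fst.comp c0)).continuousAt.eventually_lt
      continuousAt_const ?_
    simpa [e0, rl] using hδ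
  have hle : (𝓝[>] (0 : ℝ)) ×ˢ 𝓝 z₁ ≤ 𝓝 ((0 : ℝ), z₁) :=
    (Filter.prod_mono (nhdsWithin_le_nhds (s := Ioi (0 : ℝ))) (le_refl (𝓝 z₁))).trans
      (nhds_prod_eq (x := (0 : ℝ)) (y := z₁)).ge
  have p1 : ∀ᶠ a : ℝ × (ℂ × ℂ) in (𝓝[>] (0 : ℝ)) ×ˢ 𝓝 z₁, 0 < a.1 :=
    (tendsto_fst (f := 𝓝[>] (0 : ℝ)) (g := 𝓝 z₁)).eventually self_mem_nhdsWithin
  have p2 := (tendsto_snd (f := 𝓝[>] (0 : ℝ)) (g := 𝓝 z₁)).eventually (o1.and o2)
  filter_upwards [p1, p2, hle o3, hle o4, hle o5] with a a1 a2 a3 a4 a5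
  rw [dist_eq_norm]
  refine (hδs _ ⟨⟨a3, a4, ?_⟩, ?_, a5⟩).trans_lt (half_lt_self hε)
  · simp only [K1, mem_setOf_eq, ht, bl_im1, bl_im2, abs_mul, abs_of_pos a1]
    nlinarith [a2.1]
  · rw [ft_bl, norm_smul, Real.norm_of_nonneg a1.le, bl_im1]
    nlinarith [a2.2]

/-- the vertical sequence -/
theorem nt_seq {f : ℂ × ℂ → ℂ} {k : ℝ} {e : ℝ × ℝ} {x : ℂ} (hk : 0 < k) (h : NT f k e x)
    {r : ℕ → ℝ} (hr : ∀ i, 0 < r i) (hr0 : Tendsto r atTop (𝓝 0)) :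
    Tendsto (fun i => f (bl e (r i) (I, 0))) atTop (𝓝 x) := by
  have h1 : ((I, 0) : ℂ × ℂ) ∈ Tc (K1 k) := by simp [Tc, K1, ht, hk]
  refine (h _ h1).comp (Tendsto.prodMk (tendsto_nhdsWithin_iff.2 ⟨hr0, ?_⟩) tendsto_const_nhds)
  exact Eventually.of_forall hr

theorem ft_vert (e : ℝ × ℝ) (r : ℝ) : ft (bl e r (I, 0)) = e := by
  ext
  · simp [ft, bl]
  · simp [ft, bl]

theorem ht_vert (e : ℝ × ℝ) (r : ℝ) : ht (bl e r (I, 0)) = (r, 0) := by
  ext
  · simp [ht, bl]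
  · simp [ht, bl]

theorem vert_mem {e₀ e : ℝ × ℝ} {ρ k r : ℝ} (hk : 0 < k) (he : e ∈ ball e₀ ρ) (hr : 0 < r)
    (hr' : r < ρ) : bl e r (I, 0) ∈ TB e₀ ρ (K1 k) := by
  refine ⟨by rwa [ft_vert], ?_, ?_⟩
  · rw [ht_vert, Prod.norm_def]
    simp only [norm_zero, Real.norm_of_nonneg hr.le]
    rw [max_eq_left hr.le]
    exact hr'
  · rw [ht_vert]
    simp only [K1, mem_setOf_eq, abs_zero]
    positivity

/-- the vertical radii -/
noncomputable def rv (ρ : ℝ) (i : ℕ) : ℝ := ρ / ((i : ℝ) + 2)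

theorem rv_pos {ρ : ℝ} (hρ : 0 < ρ) (i : ℕ) : 0 < rv ρ i := by unfold rv; positivity

theorem rv_lt {ρ : ℝ} (hρ : 0 < ρ) (i : ℕ) : rv ρ i < ρ := by
  have h4 : (0 : ℝ) < (i : ℝ) + 2 := by positivity
  unfold rv
  rw [div_lt_iff₀ h4]; nlinarith [(Nat.cast_nonneg i : (0 : ℝ) ≤ i)]

theorem rv_tendsto (ρ : ℝ) : Tendsto (rv ρ) atTop (𝓝 0) :=
  tendsto_const_nhds.div_atTop (tendsto_atTop_add_const_right _ _ tendsto_natCast_atTop_atTop)

section

variable {f : ℂ × ℂ → ℂ} {e₀ : ℝ × ℝ} {ρ k : ℝ}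

/-- the vertical functions are continuous on the ball -/
theorem cont_vert (hρ : 0 < ρ) (hk : 0 < k) (hf : ContinuousOn f (TB e₀ ρ (K1 k))) (i : ℕ) :
    ContinuousOn (fun e => f (bl e (rv ρ i) (I, 0))) (ball e₀ ρ) := by
  refine hf.comp ?_ fun e he => vert_mem hk he (rv_pos hρ i) (rv_lt hρ i)
  unfold bl
  fun_prop

/-- a measurable function equal to the non-tangential limit wherever it exists -/
theorem exists_lim (hρ : 0 < ρ) (hk : 0 < k) (hf : ContinuousOn f (TB e₀ ρ (K1 k))) :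
    ∃ fs : ℝ × ℝ → ℂ, Measurable fs ∧ ∀ e ∈ ball e₀ ρ, ∀ x, NT f k e x → fs e = x := by
  classical
  set h : ℕ → ℝ × ℝ → ℂ := fun i => (ball e₀ ρ).piecewise (fun e => f (bl e (rv ρ i) (I, 0))) 0
    with hh
  have hm : ∀ i, Measurable (h i) := fun i =>
    (cont_vert hρ hk hf i).measurable_piecewise continuousOn_const isOpen_ball.measurableSet
  set L : Set (ℝ × ℝ) := {e | ∃ c, Tendsto (fun i => h i e) atTop (𝓝 c)} with hL
  have hLm : MeasurableSet L := measurableSet_exists_tendsto hm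
  have hex : ∀ e : ℝ × ℝ, ∃ c : ℂ, (e ∈ L → Tendsto (fun i => h i e) atTop (𝓝 c)) ∧
      (e ∉ L → c = 0) := by
    intro e
    by_cases he : e ∈ L
    · obtain ⟨c, hc⟩ := he
      exact ⟨c, fun _ => hc, fun h' => absurd ⟨c, hc⟩ h'⟩
    · exact ⟨0, fun h' => absurd h' he, fun _ => rfl⟩
  choose fs hfs1 hfs2 using hex
  refine ⟨fs, ?_, fun e he x hx => ?_⟩
  · refine measurable_of_tendsto_metrizable (f := fun i => L.indicator (h i))
      (fun i => (hm i).indicator hLm) ?_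
    rw [tendsto_pi_nhds]
    intro e
    by_cases he : e ∈ L
    · simpa only [indicator_of_mem he] using hfs1 e he
    · simp only [indicator_of_notMem he, hfs2 e he]
      exact tendsto_const_nhds
  · have h1 : Tendsto (fun i => h i e) atTop (𝓝 x) := by
      have h2 := nt_seq hk hx (rv_pos hρ) (rv_tendsto ρ)
      refine h2.congr fun i => ?_
      simp only [hh, piecewise_eq_of_mem _ _ _ he]
    exact tendsto_nhds_unique (hfs1 e ⟨x, h1⟩) h1

/-- the sets of uniform closeness -/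
def Vs (f : ℂ × ℂ → ℂ) (e₀ : ℝ × ℝ) (ρ k : ℝ) (fs : ℝ × ℝ → ℂ) (n : ℕ) (δ ε : ℝ) : Set (ℝ × ℝ) :=
  {e | ∀ z ∈ Gam e₀ ρ k n δ e, ‖f z - fs e‖ ≤ ε}

theorem measurableSet_Vs (hk : 0 < k) (hf : ContinuousOn f (TB e₀ ρ (K1 k))) {fs : ℝ × ℝ → ℂ}
    (hfs : Measurable fs) (n : ℕ) (δ ε : ℝ) : MeasurableSet (Vs f e₀ ρ k fs n δ ε) := by
  obtain ⟨D, hDc, hD⟩ := TopologicalSpace.exists_countable_dense (ℂ × ℂ)
  have heq : Vs f e₀ ρ k fs n δ ε =
      ⋂ z ∈ D, {e | z ∈ Gam e₀ ρ k n δ e → ‖f z - fs e‖ ≤ ε} := by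
    ext e
    simp only [Vs, mem_setOf_eq, mem_iInter]
    constructor
    · exact fun h z _ hz => h z hz
    · intro h z hz
      by_contra hcon
      rw [not_le] at hcon
      have hcf : ContinuousOn (fun w => ‖f w - fs e‖) (Gam e₀ ρ k n δ e) := by
        refine ((hf.mono fun w hw => ?_).sub continuousOn_const).norm
        exact TB_mono (kn_lt hk n).le hw.1 (im_pos (kn_pos hk n) hw.1).le
      have hop : IsOpen (Gam e₀ ρ k n δ e ∩ (fun w => ‖f w - fs e‖) ⁻¹' Ioi ε) :=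
        hcf.isOpen_inter_preimage (isOpen_Gam _ _ _ _ _ _) isOpen_Ioi
      obtain ⟨w, hw1, hw2⟩ := hD.inter_open_nonempty _ hop ⟨z, hz, hcon⟩
      exact absurd (h w hw2 hw1.1) (not_le.2 hw1.2)
  rw [heq]
  refine MeasurableSet.biInter hDc fun z _ => ?_
  have h1 : MeasurableSet {e : ℝ × ℝ | z ∈ Gam e₀ ρ k n δ e} := by
    by_cases hz : z ∈ TB e₀ ρ (K1 (kn k n)) ∧ z.1.im < δ
    · have : {e : ℝ × ℝ | z ∈ Gam e₀ ρ k n δ e} = {e | ‖ft z - e‖ < n * z.1.im} := by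
        ext e
        exact ⟨fun h => h.2.1, fun h => ⟨hz.1, h, hz.2⟩⟩
      rw [this]
      exact (isOpen_lt (continuous_const.sub continuous_id).norm continuous_const).measurableSet
    · have : {e : ℝ × ℝ | z ∈ Gam e₀ ρ k n δ e} = ∅ := by
        ext e
        simp only [mem_setOf_eq, mem_empty_iff_false, iff_false]
        exact fun h => hz ⟨h.1, h.2.2⟩
      rw [this]
      exact MeasurableSet.empty
  have h2 : MeasurableSet {e : ℝ × ℝ | ‖f z - fs e‖ ≤ ε} :=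
    measurableSet_le (measurable_const.sub hfs).norm measurable_const
  have h3 : {e : ℝ × ℝ | z ∈ Gam e₀ ρ k n δ e → ‖f z - fs e‖ ≤ ε} =
      {e : ℝ × ℝ | z ∈ Gam e₀ ρ k n δ e}ᶜ ∪ {e : ℝ × ℝ | ‖f z - fs e‖ ≤ ε} := by
    ext e
    simp only [mem_setOf_eq, mem_union, mem_compl_iff]
    tauto
  rw [h3]
  exact h1.compl.union h2

end

/-- **row A4.0 (EGOROV)** -/
theorem eg : TC.Eg := by
  intro T f e₀ ρ k G hρ hk hk1 hG hd η hη
  have hf := hd.continuousOn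
  obtain ⟨fs, hfsm, hfs⟩ := exists_lim hρ hk hf
  set V : ℕ × ℕ → ℕ → Set (ℝ × ℝ) := fun p j =>
    Vs f e₀ ρ k fs p.1 (1 / ((j : ℝ) + 1)) (1 / ((p.2 : ℝ) + 1)) with hV
  have hVm : ∀ p j, MeasurableSet (V p j) := fun p j => measurableSet_Vs hk hf hfsm _ _ _
  have hVmono : ∀ p, Monotone (V p) := by
    intro p i j hij e he z hz
    refine he z ⟨hz.1, hz.2.1, hz.2.2.trans_le ?_⟩
    have : (i : ℝ) ≤ j := by exact_mod_cast hij
    exact one_div_le_one_div_of_le (by positivity) (by linarith)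
  set S : Set (ℝ × ℝ) := {e ∈ ball e₀ ρ | ∃ x ∈ G, NT f k e x} with hS
  -- description of `S`
  have hS1 : ∀ e ∈ S, fs e ∈ G ∧ NT f k e (fs e) := by
    rintro e ⟨he, x, hx, hxn⟩
    rw [hfs e he x hxn]
    exact ⟨hx, hxn⟩
  have hS2 : ∀ e ∈ S, ∀ p, ∃ j, e ∈ V p j := by
    intro e he p
    obtain ⟨δ, hδ, hδs⟩ := nt_unif hk (hS1 e he).2 e₀ ρ p.1
      (ε := 1 / ((p.2 : ℝ) + 1)) (by positivity)
    obtain ⟨j, hj⟩ := exists_nat_one_div_lt hδ
    exact ⟨j, fun z hz => hδs z ⟨hz.1, hz.2.1, hz.2.2.trans hj⟩⟩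
  have hS3 : ∀ e ∈ ball e₀ ρ, (∀ p, ∃ j, e ∈ V p j) → NT f k e (fs e) := by
    intro e he h
    refine nt_of_unif hk hρ he fun n ε hε => ?_
    obtain ⟨m, hm⟩ := exists_nat_one_div_lt hε
    obtain ⟨j, hj⟩ := h (n, m)
    exact ⟨1 / ((j : ℝ) + 1), by positivity, fun z hz => (hj z hz).trans hm.le⟩
  have hSeq : S = (ball e₀ ρ ∩ fs ⁻¹' G) ∩ ⋂ p, ⋃ j, V p j := by
    ext e
    simp only [mem_inter_iff, mem_iInter, mem_iUnion, mem_preimage]
    constructor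
    · intro he
      exact ⟨⟨he.1, (hS1 e he).1⟩, hS2 e he⟩
    · rintro ⟨⟨h1, h2⟩, h3⟩
      exact ⟨h1, fs e, h2, hS3 e h1 h3⟩
  have hSm : MeasurableSet S := by
    rw [hSeq]
    refine (isOpen_ball.measurableSet.inter (hfsm hG.measurableSet)).inter ?_
    exact MeasurableSet.iInter fun p => MeasurableSet.iUnion fun j => hVm p j
  have hSfin : volume S ≠ ⊤ :=
    ((measure_mono (fun e he => he.1 : S ⊆ ball e₀ ρ)).trans_lt measure_ball_lt_top).ne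
  -- choice of the scales
  have hη2 : ENNReal.ofReal η / 2 ≠ 0 := by
    simpa using hη
  obtain ⟨ε', hε'0, hε'⟩ := ENNReal.exists_pos_sum_of_countable' hη2 (ℕ × ℕ)
  have hj : ∀ p, ∃ j, volume (S \ V p j) < ε' p := by
    intro p
    have h1 : Tendsto (volume ∘ fun j => S \ V p j) atTop (𝓝 (volume (⋂ j, S \ V p j))) := by
      refine tendsto_measure_iInter_atTop (fun j => (hSm.diff (hVm p j)).nullMeasurableSet) ?_
        ⟨0, ((measure_mono diff_subset).trans_lt hSfin.lt_top).ne⟩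
      intro i j hij
      exact diff_subset_diff_right (hVmono p hij)
    have h2 : ⋂ j, S \ V p j = ∅ := by
      ext e
      simp only [mem_iInter, mem_diff, mem_empty_iff_false, iff_false, not_forall]
      by_cases he : e ∈ S
      · obtain ⟨j, hj⟩ := hS2 e he p
        exact ⟨j, fun h => h.2 hj⟩
      · exact ⟨0, fun h => he h.1⟩
    rw [h2, measure_empty] at h1
    exact (h1.eventually_lt_const (hε'0 p)).exists
  choose j hj using hj
  set S' : Set (ℝ × ℝ) := S ∩ ⋂ p, V p (j p) with hS'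
  have hS'm : MeasurableSet S' := hSm.inter (MeasurableSet.iInter fun p => hVm p _)
  have hS'1 : volume (S \ S') ≤ ENNReal.ofReal η / 2 := by
    have h1 : S \ S' ⊆ ⋃ p, S \ V p (j p) := by
      rintro e ⟨h1, h2⟩
      simp only [hS', mem_inter_iff, mem_iInter, not_and, not_forall] at h2
      obtain ⟨p, hp⟩ := h2 h1
      exact mem_iUnion.2 ⟨p, h1, hp⟩
    calc volume (S \ S') ≤ ∑' p, volume (S \ V p (j p)) :=
          (measure_mono h1).trans (measure_iUnion_le _)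
      _ ≤ ∑' p, ε' p := ENNReal.tsum_le_tsum fun p => (hj p).le
      _ ≤ _ := hε'.le
  obtain ⟨A, hAS, hAc, hA⟩ := hS'm.exists_isCompact_diff_lt
    ((measure_mono (inter_subset_left : S' ⊆ S)).trans_lt hSfin.lt_top).ne hη2
  have hAS0 : A ⊆ S := hAS.trans inter_subset_left
  have hAV : ∀ e ∈ A, ∀ p, e ∈ V p (j p) := fun e he p => mem_iInter.1 (hAS he).2 p
  refine ⟨A, fs, hAc, fun e he => (hAS0 he).1, ?_, ?_, fun e he => hS1 e (hAS0 he), ?_⟩
  · -- continuity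
    have hu : TendstoUniformlyOn (fun i e => f (bl e (rv ρ i) (I, 0))) fs atTop A := by
      rw [Metric.tendstoUniformlyOn_iff]
      intro ε hε
      obtain ⟨m, hm⟩ := exists_nat_one_div_lt hε
      have h1 : ∀ᶠ i in atTop, rv ρ i < 1 / ((j (1, m) : ℝ) + 1) :=
        (rv_tendsto ρ).eventually_lt_const (by positivity)
      filter_upwards [h1] with i hi e he
      have h2 : bl e (rv ρ i) (I, 0) ∈ Gam e₀ ρ k 1 (1 / ((j (1, m) : ℝ) + 1)) e := by
        refine ⟨vert_mem (kn_pos hk 1) (hAS0 he).1 (rv_pos hρ i) (rv_lt hρ i), ?_, ?_⟩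
        · rw [ft_vert, sub_self, norm_zero, bl_im1]
          simpa using rv_pos hρ i
        · rw [bl_im1]
          simpa using hi
      have h3 := hAV e he (1, m) _ h2
      rw [dist_comm, dist_eq_norm]
      exact h3.trans_lt hm
    exact hu.continuousOn (Frequently.of_forall fun i =>
      (cont_vert hρ hk hf i).mono fun e he => (hAS0 he).1)
  · have h1 : S \ A ⊆ (S \ S') ∪ (S' \ A) := by
      rintro e ⟨h1, h2⟩
      by_cases h3 : e ∈ S'
      · exact Or.inr ⟨h3, h2⟩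
      · exact Or.inl ⟨h1, h3⟩
    calc volume (S \ A) ≤ volume (S \ S') + volume (S' \ A) :=
          (measure_mono h1).trans (measure_union_le _ _)
      _ ≤ ENNReal.ofReal η / 2 + ENNReal.ofReal η / 2 := add_le_add hS'1 hA.le
      _ = ENNReal.ofReal η := ENNReal.add_halves _
  · intro k₁ hk₁ C hC ε hε
    obtain ⟨m, hm⟩ := exists_nat_one_div_lt hε
    have t1 : ∀ᶠ n : ℕ in atTop, k₁ < kn k n := (kn_tendsto k).eventually_const_lt hk₁
    have t2 : ∀ᶠ n : ℕ in atTop, C < n := tendsto_natCast_atTop_atTop.eventually_gt_atTop _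
    obtain ⟨n, hn1, hn2⟩ := (t1.and t2).exists
    refine ⟨1 / ((j (n, m) : ℝ) + 1), by positivity, fun e he z hz h1 h2 => ?_⟩
    have h3 : 0 ≤ z.1.im := by
      by_contra h4
      rw [not_le] at h4
      nlinarith [norm_nonneg (ft z - e)]
    have h4 : 0 < z.1.im := by
      rcases h3.eq_or_lt with h5 | h5
      · exfalso
        have h6 := hz.2.2
        simp only [K1, mem_setOf_eq, ht, ← h5, mul_zero] at h6
        exact absurd h6 (not_lt.2 (abs_nonneg _))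
      · exact h5
    exact (hAV e he (n, m) z ⟨TB_mono hn1.le hz h3, by nlinarith, h2⟩).trans hm.le

end Vale.Agent.P097.H725
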